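import Vale.Agent.P295.Quadratic

namespace Vale.Agent.Results.P295.DegreeTwo

open MvPolynomial Vale.Agent.P295

/-- For every `n`, every stable coordinate of `R_n = ℂ[x_1, …, x_n]` of total degree at most two
is a coordinate of `R_n`. -/
theorem result : ∀ (n : ℕ) (f : MvPolynomial (Fin n) ℂ), f.totalDegree ≤ 2 →
    IsStableCoordinate f → IsCoordinate f := by
  intro n f hdeg hf
  obtain ⟨v, hv⟩ := exists_const_field_of_deg_le_two hdeg hf.gradient_ne_zero
  exact isCoordinate_of_const_field v one_ne_zero hv

end Vale.Agent.Results.P295.DegreeTwo
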